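import Vale.Agent.P235.Final

/-! P235 (GNRS conjecture): the constant for graphs of treewidth at most `2 k + 1` is at least
`k + 1`. -/

namespace Vale.Agent.Results.P235.LinearLowerBound

open Vale.Agent.P235

theorem result (k : ℕ) (C : ℝ) (hC : C < k + 1) :
    ∃ (V : Type) (_ : Finite V) (G : SimpleGraph V), G.Connected ∧ TreewidthLE G (2 * k + 1) ∧
      ∃ ℓ : Sym2 V → ℝ, (∀ z, 0 < ℓ z) ∧ ¬ EmbedsL1 (pathDist G ℓ) C :=
  final k C hC

end Vale.Agent.Results.P235.LinearLowerBound
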