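import Vale.Agent.P235.Final2

/-! P235 (GNRS conjecture): the constant for graphs of treewidth at most `t` is at least
`⌊t/2⌋ + 1`. -/

namespace Vale.Agent.Results.P235.TreewidthLowerBound

open Vale.Agent.P235

theorem result (t : ℕ) (ht : 1 ≤ t) (C : ℝ) (hC : C < (t / 2 : ℕ) + 1) :
    ∃ (V : Type) (_ : Finite V) (G : SimpleGraph V), G.Connected ∧ TreewidthLE G t ∧
      ∃ ℓ : Sym2 V → ℝ, (∀ z, 0 < ℓ z) ∧ ¬ EmbedsL1 (pathDist G ℓ) C := by
  have hmono : ∀ {V : Type} {G : SimpleGraph V} {a b : ℕ}, a ≤ b → TreewidthLE G a →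
      TreewidthLE G b := by
    rintro V G a b hab ⟨τ, h1, T, bag, h2, h3, h4, h5⟩
    exact ⟨τ, h1, T, bag, h2, h3, h4, fun t => (h5 t).trans (by omega)⟩
  rcases Nat.lt_or_ge t 2 with h | h
  · have h1 : t = 1 := by omega
    subst h1
    obtain ⟨V, h2, G, h3, h4, h5⟩ := final 0 C (by simpa using hC)
    exact ⟨V, h2, G, h3, hmono (by omega) h4, h5⟩
  · obtain ⟨k, hk⟩ : ∃ k, t / 2 = k + 1 := ⟨t / 2 - 1, by omega⟩
    obtain ⟨V, h2, G, h3, h4, h5⟩ := final2 k C (by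
      rw [hk] at hC; push_cast at hC; linarith)
    exact ⟨V, h2, G, h3, hmono (by omega) h4, h5⟩

end Vale.Agent.Results.P235.TreewidthLowerBound
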