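import Vale.Agent.P235.Final3

/-! P235 (GNRS conjecture): the constant for graphs of treewidth at most `3` is at least `17/6`;
for treewidth at most `2k+3` it is at least `k + 17/6`, and for treewidth at most `2k+2` at least
`k + 2`. -/

namespace Vale.Agent.Results.P235.TreewidthThree

open Vale.Agent.P235

theorem result (k : ℕ) (C : ℝ) :
    (C < k + 17/6 →
      ∃ (V : Type) (_ : Finite V) (G : SimpleGraph V), G.Connected ∧ TreewidthLE G (2 * k + 3) ∧
        ∃ ℓ : Sym2 V → ℝ, (∀ z, 0 < ℓ z) ∧ ¬ EmbedsL1 (pathDist G ℓ) C) ∧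
    (C < k + 2 →
      ∃ (V : Type) (_ : Finite V) (G : SimpleGraph V), G.Connected ∧ TreewidthLE G (2 * k + 2) ∧
        ∃ ℓ : Sym2 V → ℝ, (∀ z, 0 < ℓ z) ∧ ¬ EmbedsL1 (pathDist G ℓ) C) :=
  ⟨final3 k C, final2 k C⟩

end Vale.Agent.Results.P235.TreewidthThree
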